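import Mathlib
import Crest.Agent.Helper96.S0151.Defs

/-!
# S0151, leaf C5 (Tau): the vacuum state of a covariant shift (helper95)

`norm_vacuumVector` and `IsCov.tau_eq`, with the names and signatures of
`Crest.Agent.Helper96.S0151.Blueprint`.  Self-contained over `Defs` (the two measure facts needed —
the index shift preserves `pairMeasure`, and `orbitPoint θ 0` is the identity almost everywhere —
are proved locally).
-/

set_option autoImplicit false

open MeasureTheory Crest.AnalysisR.ProductShift
open scoped ENNReal ComplexConjugate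

namespace Crest.Agent.Helper95.S0151

open Crest.Agent.Helper96.S0151

/-- the support `univ ×ˢ {0}` of the vacuum vector has measure one -/
theorem pairMeasure_vac :
    pairMeasure ((Set.univ : Set (ℕ → ℝ)) ×ˢ ({0} : Set ℤ)) = 1 := by
  rw [pairMeasure, Measure.prod_prod, measure_univ, Measure.count_singleton, one_mul]

theorem norm_vacuumVector : ‖vacuumVector‖ = 1 := by
  unfold vacuumVector
  rw [norm_indicatorConstLp (by norm_num) (by norm_num)]
  simp [Measure.real, pairMeasure_vac]

/-- the shift `(x, k) ↦ (x, k - d)` preserves `pairMeasure` (local copy) -/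
theorem shift_measurePreserving (d : ℤ) :
    MeasurePreserving (fun p : (ℕ → ℝ) × ℤ => (p.1, p.2 - d)) pairMeasure pairMeasure := by
  unfold pairMeasure
  have h2 : MeasurePreserving (fun k : ℤ => k - d) (Measure.count : Measure ℤ) Measure.count :=
    measurePreserving_sub_right _ d
  exact (MeasurePreserving.id cubeMeasure).prod h2

/-- almost every point of the cube has all its coordinates in `[0,1)` -/
theorem ae_cube_mem_Ico : ∀ᵐ x ∂cubeMeasure, ∀ i : ℕ, x i ∈ Set.Ico (0 : ℝ) 1 := by
  rw [ae_all_iff]
  intro i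
  have h := measurePreserving_eval_infinitePi (fun _ : ℕ => unitLebesgue) i
  have h1 : ∀ᵐ t ∂unitLebesgue, t ∈ Set.Ico (0 : ℝ) 1 := by
    unfold unitLebesgue
    exact ae_restrict_mem measurableSet_Ico
  exact h.quasiMeasurePreserving.ae h1

/-- `orbitPoint θ 0` is the identity almost everywhere -/
theorem orbitPoint_zero_ae (θ : ℕ → ℝ) : ∀ᵐ x ∂cubeMeasure, orbitPoint θ 0 x = x := by
  filter_upwards [ae_cube_mem_Ico] with x hx
  funext i
  simp only [orbitPoint, Int.cast_zero, zero_mul, add_zero]
  exact Int.fract_eq_self.mpr ⟨(hx i).1, (hx i).2⟩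

set_option linter.unusedVariables false in
theorem IsCov.tau_eq {θ : ℕ → ℝ} {m : (ℕ → ℝ) → ℂ} {d : ℤ} {W : pairSpace →L[ℂ] pairSpace}
    (h : IsCov θ m d W) (hm : BM m) :
    tau W = if d = 0 then ∫ y, m y ∂cubeMeasure else 0 := by
  set S : Set ((ℕ → ℝ) × ℤ) := Set.univ ×ˢ {0} with hS
  have hSm : MeasurableSet S := MeasurableSet.univ.prod (measurableSet_singleton 0)
  have hSfin : pairMeasure S ≠ ⊤ := by rw [hS, pairMeasure_vac]; exact ENNReal.one_ne_top
  have h1 : tau W = ∫ p in S, (W vacuumVector : (ℕ → ℝ) × ℤ → ℂ) p ∂pairMeasure :=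
    L2.inner_indicatorConstLp_one hSm hSfin (W vacuumVector)
  have h2 : ∀ᵐ p ∂pairMeasure, (W vacuumVector : (ℕ → ℝ) × ℤ → ℂ) p
      = m (orbitPoint θ p.2 p.1) * S.indicator (fun _ => (1 : ℂ)) (p.1, p.2 - d) := by
    have hv : (vacuumVector : (ℕ → ℝ) × ℤ → ℂ) =ᵐ[pairMeasure] S.indicator fun _ => (1 : ℂ) :=
      indicatorConstLp_coeFn
    have hv' := (shift_measurePreserving d).quasiMeasurePreserving.ae_eq hv
    filter_upwards [h vacuumVector, hv'] with p hp hq
    rw [hp]
    congr 1
  have h3 : ∀ᵐ p ∂(pairMeasure.restrict S), (W vacuumVector : (ℕ → ℝ) × ℤ → ℂ) p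
      = if d = 0 then m (orbitPoint θ 0 p.1) else 0 := by
    filter_upwards [ae_restrict_of_ae h2, ae_restrict_mem hSm] with p hp hpS
    have hp2 : p.2 = 0 := by simpa [hS] using hpS
    rw [hp, hp2]
    by_cases hd : d = 0
    · subst hd
      simp [hS]
    · have hnot : (p.1, (0 : ℤ) - d) ∉ S := by simp [hS, hd]
      rw [Set.indicator_of_notMem hnot, mul_zero, if_neg hd]
  rw [h1, integral_congr_ae h3]
  split_ifs with hd
  · have hres : pairMeasure.restrict S = cubeMeasure.prod (Measure.dirac (0 : ℤ)) := by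
      rw [hS, pairMeasure, ← Measure.prod_restrict, Measure.restrict_univ,
        Measure.restrict_singleton, Measure.count_singleton, one_smul]
    rw [hres, integral_fun_fst (fun x => m (orbitPoint θ 0 x))]
    simp only [Measure.real, measure_univ, ENNReal.toReal_one, one_smul]
    exact integral_congr_ae ((orbitPoint_zero_ae θ).mono fun x hx => by
      show m (orbitPoint θ 0 x) = m x
      rw [hx])
  · simp

end Crest.Agent.Helper95.S0151
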